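import Vale.Agent.P243.Statement
import Vale.Agent.P243.Main

namespace Vale.Agent.Results.P243.Counterexample

open Vale.Agent.P243.Statement

/-- The regular tetrahedron is a convex body that is covered by finitely many cylinders whose
total base area is at most `(1/2 - 1/5000)` times its minimal projection area. -/
theorem result :
    (IsCompact tetrahedron ∧ Convex ℝ tetrahedron ∧ (interior tetrahedron).Nonempty) ∧
    (0 < minProjArea tetrahedron ∧ minProjArea tetrahedron < ⊤) ∧
    ∃ (m : ℕ) (u : Fin m → EuclideanSpace ℝ (Fin 3)) (B : (i : Fin m) → Set (plane (u i))),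
      (∀ i, ‖u i‖ = 1) ∧ (∀ i, IsBase (u i) (B i)) ∧
      tetrahedron ⊆ ⋃ i, cylinder (u i) (B i) ∧
      ∑ i, area (u i) (B i) ≤ ENNReal.ofReal (1 / 2 - 1 / 5000) * minProjArea tetrahedron ∧
      ∑ i, area (u i) (B i) < minProjArea tetrahedron / 2 ∧
      ∑ i, area (u i) (B i) / projArea tetrahedron (u i) < 1 / 2 := by
  obtain ⟨h1, h2, m, u, B, h3, h4, h5, h6⟩ := Vale.Agent.P243.main
  exact ⟨h1, h2, m, u, B, h3, fun i => ⟨h4 i, h5 i⟩, h6⟩

end Vale.Agent.Results.P243.Counterexample
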